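import Mathlib

namespace Vale.Agent.P034

open Finset

/-- bound for elementary symmetric sums -/
lemma esymm_bound {ι : Type*} [DecidableEq ι] (B : Finset ι) (c : ι → ℝ) (hc : ∀ i, 0 ≤ c i)
    (m : ℕ) (t : ℝ) (ht : 0 < t) (hN : t * ∑ i ∈ B, c i ≤ m) :
    ∑ I ∈ powersetCard m B, ∏ i ∈ I, c i ≤ (3 / t) ^ m := by
  have h1 : t ^ m * ∑ I ∈ powersetCard m B, ∏ i ∈ I, c i
      = ∑ I ∈ powersetCard m B, ∏ i ∈ I, (t * c i) := by
    rw [Finset.mul_sum]
    apply Finset.sum_congr rfl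
    intro I hI
    rw [Finset.prod_mul_distrib, Finset.prod_const, (mem_powersetCard.mp hI).2]
  have h2 : ∑ I ∈ powersetCard m B, ∏ i ∈ I, (t * c i)
      ≤ ∑ I ∈ B.powerset, ∏ i ∈ I, (t * c i) := by
    apply Finset.sum_le_sum_of_subset_of_nonneg
      (fun I hI => mem_powerset.mpr (mem_powersetCard.mp hI).1)
    intro I _ _
    exact Finset.prod_nonneg (fun i _ => mul_nonneg ht.le (hc i))
  have h3 : ∑ I ∈ B.powerset, ∏ i ∈ I, (t * c i) = ∏ i ∈ B, (1 + t * c i) :=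
    (Finset.prod_one_add B).symm
  have h4 : ∏ i ∈ B, (1 + t * c i) ≤ Real.exp (∑ i ∈ B, t * c i) :=
    Real.prod_one_add_le_exp_sum B (fun i => mul_nonneg ht.le (hc i))
  have h5 : Real.exp (∑ i ∈ B, t * c i) ≤ 3 ^ m := by
    rw [← Finset.mul_sum]
    calc Real.exp (t * ∑ i ∈ B, c i) ≤ Real.exp (m : ℝ) := Real.exp_le_exp.mpr hN
      _ = Real.exp 1 ^ m := by rw [← Real.exp_nat_mul]; simp
      _ ≤ 3 ^ m := by
        apply pow_le_pow_left₀ (Real.exp_pos 1).le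
        exact (Real.exp_one_lt_d9.trans (by norm_num)).le
  have h6 : t ^ m * ∑ I ∈ powersetCard m B, ∏ i ∈ I, c i ≤ 3 ^ m := by
    rw [h1]; linarith
  rw [div_pow, le_div_iff₀ (pow_pos ht m)]
  linarith

lemma sum_biUnion_le' {α β : Type*} [DecidableEq α] [DecidableEq β] (s : Finset α)
    (t : α → Finset β) (f : β → ℝ) (hf : ∀ b, 0 ≤ f b) :
    ∑ b ∈ s.biUnion t, f b ≤ ∑ a ∈ s, ∑ b ∈ t a, f b := by
  induction s using Finset.induction_on with
  | empty => simp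
  | insert a s ha ih =>
    rw [Finset.biUnion_insert, Finset.sum_insert ha]
    have h := Finset.sum_union_inter (s₁ := t a) (s₂ := s.biUnion t) (f := f)
    have h2 : 0 ≤ ∑ b ∈ t a ∩ s.biUnion t, f b := Finset.sum_nonneg (fun b _ => hf b)
    linarith

lemma exists_level (x : ℝ) (h0 : 0 < x) (h1 : x ≤ 1) :
    ∃ l : ℕ, 1 ≤ l ∧ (1 / 2 : ℝ) ^ l < x ∧ x ≤ 2 * (1 / 2 : ℝ) ^ l := by
  classical
  have h := exists_pow_lt_of_lt_one h0 (by norm_num : (1 / 2 : ℝ) < 1)
  have hs := Nat.find_spec h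
  have hne : Nat.find h ≠ 0 := by
    intro h0'
    rw [h0'] at hs
    simp at hs
    linarith
  refine ⟨Nat.find h, Nat.one_le_iff_ne_zero.mpr hne, hs, ?_⟩
  have hm := Nat.find_min h (m := Nat.find h - 1) (by omega)
  rw [not_lt] at hm
  have e : (1 / 2 : ℝ) ^ (Nat.find h) = (1 / 2 : ℝ) ^ (Nat.find h - 1) * (1 / 2) := by
    rw [← pow_succ]
    congr 1
    omega
  rw [e]
  linarith

lemma sum_geom_half_le (s : Finset ℕ) : ∑ l ∈ s, (1 / 2 : ℝ) ^ l ≤ 2 := by
  have h := hasSum_geometric_of_lt_one (by norm_num : (0 : ℝ) ≤ 1 / 2) (by norm_num : (1 / 2 : ℝ) < 1)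
  have := sum_le_hasSum s (fun i _ => by positivity) h
  norm_num at this ⊢
  linarith

lemma sum_coe_geom_half_le (s : Finset ℕ) : ∑ l ∈ s, (l : ℝ) * (1 / 2 : ℝ) ^ l ≤ 2 := by
  have h := hasSum_coe_mul_geometric_of_norm_lt_one (𝕜 := ℝ) (r := 1 / 2) (by norm_num)
  have := sum_le_hasSum s (fun i _ => by positivity) h
  norm_num at this ⊢
  linarith

theorem core {ι : Type*} [DecidableEq ι] (A : Finset ι) (a lam : ι → ℝ)
    (ha : ∀ i, 0 ≤ a i) (hl0 : ∀ i ∈ A, 0 < lam i) (hl1 : ∀ i ∈ A, lam i ≤ 1)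
    (hc : ∑ i ∈ A, lam i * a i ≤ 1) :
    ∃ K : Finset (Finset ι), (∀ I ∈ K, I.Nonempty ∧ I ⊆ A) ∧
      (∀ J ⊆ A, 1 ≤ ∑ i ∈ J, lam i → ∃ I ∈ K, I ⊆ J) ∧
      ∑ I ∈ K, ∏ i ∈ I, (a i / 2 ^ 37) ≤ 1 / 2 := by
  classical
  have hex : ∀ i, i ∈ A → ∃ l : ℕ, 1 ≤ l ∧ (1 / 2 : ℝ) ^ l < lam i ∧ lam i ≤ 2 * (1 / 2 : ℝ) ^ l :=
    fun i hi => exists_level (lam i) (hl0 i hi) (hl1 i hi)
  choose! lev hlev using hex
  set Al : ℕ → Finset ι := fun l => A.filter (fun i => lev i = l) with hAl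
  set N : ℕ → ℝ := fun l => ∑ i ∈ Al l, a i with hN
  set x : ℕ → ℝ := fun l => N l / 8 + (l : ℝ) / 16 with hx
  set m : ℕ → ℕ := fun l => ⌈x l⌉₊ with hm
  set Ls : Finset ℕ := A.image lev with hLs
  have hN0 : ∀ l, 0 ≤ N l := fun l => Finset.sum_nonneg (fun i _ => ha i)
  have hLs1 : ∀ l ∈ Ls, 1 ≤ l := by
    intro l hl
    obtain ⟨i, hi, rfl⟩ := Finset.mem_image.mp hl
    exact (hlev i hi).1
  have hxm : ∀ l, x l ≤ (m l : ℝ) := fun l => Nat.le_ceil (x l)
  have hm1 : ∀ l ∈ Ls, 1 ≤ m l := by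
    intro l hl
    have h1 : (1 : ℝ) ≤ (l : ℝ) := by exact_mod_cast hLs1 l hl
    have : 0 < x l := by
      have := hN0 l
      simp only [hx]
      linarith
    exact Nat.ceil_pos.mpr this
  -- mass bound
  have hmass : ∑ l ∈ Ls, (1 / 2 : ℝ) ^ l * N l ≤ 1 := by
    calc ∑ l ∈ Ls, (1 / 2 : ℝ) ^ l * N l
        = ∑ l ∈ Ls, ∑ i ∈ Al l, (1 / 2 : ℝ) ^ l * a i := by
          apply Finset.sum_congr rfl
          intro l _
          rw [Finset.mul_sum]
      _ ≤ ∑ l ∈ Ls, ∑ i ∈ Al l, lam i * a i := by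
          apply Finset.sum_le_sum
          intro l _
          apply Finset.sum_le_sum
          intro i hi
          have hi' := Finset.mem_filter.mp hi
          apply mul_le_mul_of_nonneg_right _ (ha i)
          rw [← hi'.2]
          exact (hlev i hi'.1).2.1.le
      _ = ∑ i ∈ A, lam i * a i := by
          apply Finset.sum_fiberwise_of_maps_to
          intro i hi
          exact Finset.mem_image_of_mem lev hi
      _ ≤ 1 := hc
  refine ⟨Ls.biUnion (fun l => powersetCard (m l) (Al l)), ?_, ?_, ?_⟩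
  · intro I hI
    obtain ⟨l, hl, hI'⟩ := Finset.mem_biUnion.mp hI
    have hcard := (mem_powersetCard.mp hI').2
    refine ⟨?_, (mem_powersetCard.mp hI').1.trans (Finset.filter_subset _ _)⟩
    rw [← Finset.card_pos, hcard]
    exact hm1 l hl
  · intro J hJ hsum
    by_contra hcon
    have hsmall : ∀ l ∈ Ls, ((J.filter (fun i => lev i = l)).card : ℝ) ≤ x l := by
      intro l hl
      by_contra hgt
      rw [not_le] at hgt
      have hle : m l ≤ (J.filter (fun i => lev i = l)).card := by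
        apply Nat.ceil_le.mpr hgt.le
      obtain ⟨I, hIsub, hIcard⟩ := Finset.exists_subset_card_eq hle
      apply hcon
      refine ⟨I, ?_, hIsub.trans (Finset.filter_subset _ _)⟩
      apply Finset.mem_biUnion.mpr
      refine ⟨l, hl, mem_powersetCard.mpr ⟨?_, hIcard⟩⟩
      intro i hi
      have := Finset.mem_filter.mp (hIsub hi)
      exact Finset.mem_filter.mpr ⟨hJ this.1, this.2⟩
    have h1 : ∑ i ∈ J, lam i = ∑ l ∈ Ls, ∑ i ∈ J.filter (fun i => lev i = l), lam i := by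
      symm
      apply Finset.sum_fiberwise_of_maps_to
      intro i hi
      exact Finset.mem_image_of_mem lev (hJ hi)
    have h2 : ∀ l ∈ Ls, ∑ i ∈ J.filter (fun i => lev i = l), lam i
        ≤ x l * (2 * (1 / 2 : ℝ) ^ l) := by
      intro l hl
      calc ∑ i ∈ J.filter (fun i => lev i = l), lam i
          ≤ ∑ i ∈ J.filter (fun i => lev i = l), (2 * (1 / 2 : ℝ) ^ l) := by
            apply Finset.sum_le_sum
            intro i hi
            have hi' := Finset.mem_filter.mp hi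
            rw [← hi'.2]
            exact (hlev i (hJ hi'.1)).2.2
        _ = ((J.filter (fun i => lev i = l)).card : ℝ) * (2 * (1 / 2 : ℝ) ^ l) := by
            rw [Finset.sum_const, nsmul_eq_mul]
        _ ≤ x l * (2 * (1 / 2 : ℝ) ^ l) := by
            apply mul_le_mul_of_nonneg_right (hsmall l hl)
            positivity
    have h3 : ∑ l ∈ Ls, x l * (2 * (1 / 2 : ℝ) ^ l)
        = (1 / 4) * ∑ l ∈ Ls, (1 / 2 : ℝ) ^ l * N l
          + (1 / 8) * ∑ l ∈ Ls, (l : ℝ) * (1 / 2 : ℝ) ^ l := by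
      rw [Finset.mul_sum, Finset.mul_sum, ← Finset.sum_add_distrib]
      apply Finset.sum_congr rfl
      intro l _
      simp only [hx]
      ring
    have h4 := sum_coe_geom_half_le Ls
    have h5 : ∑ i ∈ J, lam i ≤ ∑ l ∈ Ls, x l * (2 * (1 / 2 : ℝ) ^ l) := by
      rw [h1]
      exact Finset.sum_le_sum h2
    linarith
  · have hf : ∀ I : Finset ι, 0 ≤ ∏ i ∈ I, (a i / 2 ^ 37) :=
      fun I => Finset.prod_nonneg (fun i _ => div_nonneg (ha i) (by positivity))
    have h1 := sum_biUnion_le' Ls (fun l => powersetCard (m l) (Al l))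
      (fun I => ∏ i ∈ I, (a i / 2 ^ 37)) hf
    have h2 : ∀ l ∈ Ls, ∑ I ∈ powersetCard (m l) (Al l), ∏ i ∈ I, (a i / 2 ^ 37)
        ≤ (1 / 2 : ℝ) ^ 16 * (1 / 2 : ℝ) ^ l := by
      intro l hl
      have hb := esymm_bound (Al l) (fun i => a i / 2 ^ 37)
        (fun i => div_nonneg (ha i) (by positivity)) (m l) (2 ^ 34) (by positivity) (by
          rw [← Finset.sum_div]
          have h8 : N l / 8 ≤ (m l : ℝ) := by
            have := hxm l
            have h0 : (0 : ℝ) ≤ (l : ℝ) / 16 := by positivity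
            simp only [hx] at this
            linarith
          have e : (2 : ℝ) ^ 34 * ((∑ i ∈ Al l, a i) / 2 ^ 37) = N l / 8 := by
            simp only [hN]
            ring
          rw [e]
          exact h8)
      refine hb.trans ?_
      have hlm : (l : ℝ) ≤ 16 * (m l : ℝ) := by
        have := hxm l
        have h0 := hN0 l
        simp only [hx] at this
        linarith
      have hlm' : l ≤ 16 * m l := by exact_mod_cast hlm
      have hm1' := hm1 l hl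
      calc ((3 : ℝ) / 2 ^ 34) ^ (m l) ≤ ((1 / 2 : ℝ) ^ 32) ^ (m l) := by
            apply pow_le_pow_left₀ (by positivity)
            norm_num
        _ = (1 / 2 : ℝ) ^ (32 * m l) := by rw [← pow_mul]
        _ ≤ (1 / 2 : ℝ) ^ (16 + l) := by
            apply pow_le_pow_of_le_one (by norm_num) (by norm_num)
            omega
        _ = (1 / 2 : ℝ) ^ 16 * (1 / 2 : ℝ) ^ l := by rw [pow_add]
    have h3 : ∑ l ∈ Ls, ∑ I ∈ powersetCard (m l) (Al l), ∏ i ∈ I, (a i / 2 ^ 37)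
        ≤ ∑ l ∈ Ls, (1 / 2 : ℝ) ^ 16 * (1 / 2 : ℝ) ^ l := Finset.sum_le_sum h2
    rw [← Finset.mul_sum] at h3
    have h4 := sum_geom_half_le Ls
    have h5 : (1 / 2 : ℝ) ^ 16 * ∑ l ∈ Ls, (1 / 2 : ℝ) ^ l ≤ (1 / 2 : ℝ) ^ 16 * 2 :=
      mul_le_mul_of_nonneg_left h4 (by positivity)
    have h6 : (1 / 2 : ℝ) ^ 16 * 2 ≤ 1 / 2 := by norm_num
    linarith

lemma one_le_sum_min {ι : Type*} (J : Finset ι) (x : ι → ℝ) (hx : ∀ i ∈ J, 0 ≤ x i)
    (h : 1 ≤ ∑ i ∈ J, x i) : 1 ≤ ∑ i ∈ J, min 1 (x i) := by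
  classical
  by_cases hbig : ∃ i ∈ J, 1 ≤ x i
  · obtain ⟨i, hi, hi1⟩ := hbig
    have h1 : min 1 (x i) = 1 := min_eq_left hi1
    calc (1 : ℝ) = min 1 (x i) := h1.symm
      _ ≤ ∑ j ∈ J, min 1 (x j) :=
        Finset.single_le_sum (f := fun j => min 1 (x j))
          (fun j hj => le_min zero_le_one (hx j hj)) hi
  · have hall : ∀ i ∈ J, min 1 (x i) = x i := by
      intro i hi
      apply min_eq_right
      by_contra hcon
      exact hbig ⟨i, hi, (not_le.mp hcon).le⟩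
    rw [Finset.sum_congr rfl hall]
    exact h

lemma sum_image_le' {α β : Type*} [DecidableEq α] [DecidableEq β] (s : Finset α) (φ : α → β)
    (f : β → ℝ) (hf : ∀ b, 0 ≤ f b) : ∑ b ∈ s.image φ, f b ≤ ∑ a ∈ s, f (φ a) := by
  have h := sum_biUnion_le' s (fun a => ({φ a} : Finset β)) f hf
  have e : s.biUnion (fun a => ({φ a} : Finset β)) = s.image φ := by
    ext b
    simp [eq_comm]
  rw [e] at h
  simpa using h

end Vale.Agent.P034
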