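import Mathlib

namespace Vale.Agent.P034

open Finset

/-- The family `G` covers `F`: every member of `F` contains a member of `G`. -/
def Covers {X : Type} (G F : Finset (Finset X)) : Prop :=
  ∀ H ∈ F, ∃ S ∈ G, S ⊆ H

/-- The cost of the family `G` at `p`, with the convention `p ^ 0 = 1`. -/
def cost {X : Type} (G : Finset (Finset X)) (p : ℝ) : ℝ :=
  ∑ S ∈ G, p ^ S.card

/-- `F` is `p`-small: some cover of `F` has cost at most `1 / 2` at `p`. -/
def IsSmall {X : Type} (F : Finset (Finset X)) (p : ℝ) : Prop :=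
  ∃ G : Finset (Finset X), Covers G F ∧ cost G p ≤ 1 / 2

/-- `g` is a fractional cover of `F`. -/
def IsFracCover {X : Type} (g : Finset X → ℝ) (F : Finset (Finset X)) : Prop :=
  (∀ S, 0 ≤ g S ∧ g S ≤ 1) ∧ ∀ H ∈ F, 1 ≤ ∑ S ∈ H.powerset, g S

/-- The cost of the fractional cover `g` at `p`. -/
def fracCost {X : Type} [Fintype X] (g : Finset X → ℝ) (p : ℝ) : ℝ :=
  ∑ S : Finset X, g S * p ^ S.card

/-- `S` is linked by the set system `E`: no nonempty proper part `Q` of `S` is closed under the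
members of `E` lying inside `S`, that is, some member of `E` inside `S` meets `Q` and leaves `Q`. -/
def Linked {X : Type} [DecidableEq X] (E : Finset (Finset X)) (S : Finset X) : Prop :=
  ∀ Q : Finset X, Q.Nonempty → Q ⊂ S → ∃ T ∈ E, T ⊆ S ∧ ¬ Disjoint T Q ∧ ¬ T ⊆ Q

end Vale.Agent.P034
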