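import Mathlib

namespace Vale.Agent.P034

open Finset

variable {X : Type} [Fintype X] [DecidableEq X]

/-- `R` can be grown from `Q` by sets of `W` lying inside `R`. -/
def Reach (W : Finset (Finset X)) (Q R : Finset X) : Prop :=
  Q ⊆ R ∧ ∀ Q', Q ⊆ Q' → Q' ⊂ R → ∃ T ∈ W, T ⊆ R ∧ ¬ Disjoint T Q' ∧ ¬ T ⊆ Q'

/-- The sets of `W` that touch `Q` and leave it. -/
def bdry (W : Finset (Finset X)) (Q : Finset X) : Finset (Finset X) :=
  W.filter (fun T => ¬ Disjoint T Q ∧ ¬ T ⊆ Q)

open Classical in
lemma reach_filter_of_bdry_empty (W : Finset (Finset X)) (Q : Finset X) (hb : bdry W Q = ∅) :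
    (univ.filter (fun R => Reach W Q R)) = {Q} := by
  ext R
  simp only [mem_filter, mem_univ, true_and, mem_singleton]
  constructor
  · rintro ⟨hQR, h⟩
    by_contra hne
    have hss : Q ⊂ R := Finset.ssubset_iff_subset_ne.mpr ⟨hQR, fun e => hne e.symm⟩
    obtain ⟨T, hTW, _, h1, h2⟩ := h Q (Finset.Subset.refl Q) hss
    have hmem : T ∈ bdry W Q := Finset.mem_filter.mpr ⟨hTW, h1, h2⟩
    rw [hb] at hmem
    simp at hmem
  · rintro rfl
    refine ⟨Finset.Subset.refl _, fun Q' h1 h2 => ?_⟩
    exact absurd (Finset.ssubset_of_subset_of_ssubset h1 h2) (ssubset_irrefl _)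

lemma reach_split (W : Finset (Finset X)) (Q T0 R : Finset X) (h : Reach W Q R) :
    Reach (W.erase T0) Q R ∨ Reach (W.erase T0) (Q ∪ T0) R := by
  obtain ⟨hQR, h⟩ := h
  by_cases hT : T0 ⊆ R
  · right
    refine ⟨Finset.union_subset hQR hT, fun Q' hQ' hss => ?_⟩
    obtain ⟨T, hTW, hTR, h1, h2⟩ := h Q' (Finset.subset_union_left.trans hQ') hss
    refine ⟨T, Finset.mem_erase.mpr ⟨fun e => h2 ?_, hTW⟩, hTR, h1, h2⟩
    rw [e]
    exact Finset.subset_union_right.trans hQ'
  · left
    refine ⟨hQR, fun Q' hQ' hss => ?_⟩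
    obtain ⟨T, hTW, hTR, h1, h2⟩ := h Q' hQ' hss
    refine ⟨T, Finset.mem_erase.mpr ⟨fun e => hT ?_, hTW⟩, hTR, h1, h2⟩
    rw [← e]
    exact hTR

lemma bdry_erase (W : Finset (Finset X)) (Q T0 : Finset X) :
    bdry (W.erase T0) Q = (bdry W Q).erase T0 := by
  ext T
  simp only [bdry, mem_filter, mem_erase]
  tauto

lemma bdry_union_subset (W : Finset (Finset X)) (Q T0 : Finset X) :
    bdry (W.erase T0) (Q ∪ T0) ⊆
      (bdry W Q).erase T0 ∪ (T0 \ Q).biUnion (fun x => W.filter (fun T => x ∈ T)) := by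
  intro T hT
  simp only [bdry, mem_filter, mem_erase] at hT
  obtain ⟨⟨hne, hTW⟩, h1, h2⟩ := hT
  have h2' : ¬ T ⊆ Q := fun h => h2 (h.trans Finset.subset_union_left)
  by_cases hd : Disjoint T Q
  · apply Finset.mem_union_right
    rw [Finset.not_disjoint_iff] at h1
    obtain ⟨x, hxT, hx⟩ := h1
    have hxQ : x ∉ Q := fun hxQ => (Finset.disjoint_left.mp hd) hxT hxQ
    have hxT0 : x ∈ T0 := by
      rcases Finset.mem_union.mp hx with h | h
      · exact absurd h hxQ
      · exact h
    exact Finset.mem_biUnion.mpr ⟨x, Finset.mem_sdiff.mpr ⟨hxT0, hxQ⟩,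
      Finset.mem_filter.mpr ⟨hTW, hxT⟩⟩
  · apply Finset.mem_union_left
    exact Finset.mem_erase.mpr ⟨hne, Finset.mem_filter.mpr ⟨hTW, hd, h2'⟩⟩

open Classical in
theorem growth (D : ℕ) (t lam : ℝ) (ht0 : 0 ≤ t) (hlam1 : 1 ≤ lam)
    (hkey : t * lam ^ D ≤ lam - 1) (hkey1 : t * lam ^ D ≤ 1) :
    ∀ (n : ℕ) (W : Finset (Finset X)), W.card ≤ n →
      (∀ x, (W.filter (fun T => x ∈ T)).card ≤ D) →
      ∀ Q : Finset X, ∑ R ∈ univ.filter (fun R => Reach W Q R), t ^ (R \ Q).card
        ≤ lam ^ (bdry W Q).card := by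
  intro n
  induction n with
  | zero =>
    intro W hW hdeg Q
    have hW0 : W = ∅ := Finset.card_eq_zero.mp (Nat.le_zero.mp hW)
    have hb : bdry W Q = ∅ := by simp [bdry, hW0]
    rw [reach_filter_of_bdry_empty W Q hb, hb]
    simp
  | succ n ih =>
    intro W hW hdeg Q
    by_cases hb : bdry W Q = ∅
    · rw [reach_filter_of_bdry_empty W Q hb, hb]
      simp
    · obtain ⟨T0, hT0⟩ := Finset.nonempty_iff_ne_empty.mpr hb
      have hT0' := Finset.mem_filter.mp hT0
      have hT0W : T0 ∈ W := hT0'.1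
      set W' := W.erase T0 with hW'
      have hW'card : W'.card ≤ n := by
        rw [hW', Finset.card_erase_of_mem hT0W]
        omega
      have hdeg' : ∀ x, (W'.filter (fun T => x ∈ T)).card ≤ D := by
        intro x
        refine le_trans (Finset.card_le_card ?_) (hdeg x)
        exact Finset.filter_subset_filter _ (Finset.erase_subset _ _)
      set m := (T0 \ Q).card with hm
      have hm1 : 1 ≤ m := by
        rw [hm, Nat.one_le_iff_ne_zero, Ne, Finset.card_eq_zero, Finset.sdiff_eq_empty_iff_subset]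
        exact hT0'.2.2
      set b := (bdry W Q).card with hbdef
      have hb1 : 1 ≤ b := Finset.card_pos.mpr ⟨T0, hT0⟩
      have ih1 := ih W' hW'card hdeg' Q
      have ih2 := ih W' hW'card hdeg' (Q ∪ T0)
      have c1 : (bdry W' Q).card = b - 1 := by
        rw [hW', bdry_erase, Finset.card_erase_of_mem hT0]
      have c2 : (bdry W' (Q ∪ T0)).card ≤ (b - 1) + m * D := by
        refine le_trans (Finset.card_le_card (bdry_union_subset W Q T0)) ?_
        refine le_trans (Finset.card_union_le _ _) ?_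
        rw [Finset.card_erase_of_mem hT0]
        apply Nat.add_le_add_left
        refine le_trans Finset.card_biUnion_le ?_
        refine le_trans (Finset.sum_le_card_nsmul _ _ D (fun x _ => hdeg x)) ?_
        simp [hm]
      have hf0 : ∀ R : Finset X, 0 ≤ t ^ (R \ Q).card := fun R => pow_nonneg ht0 _
      have s1 : ∑ R ∈ univ.filter (fun R => Reach W Q R), t ^ (R \ Q).card
          ≤ ∑ R ∈ univ.filter (fun R => Reach W' Q R), t ^ (R \ Q).card
            + ∑ R ∈ univ.filter (fun R => Reach W' (Q ∪ T0) R), t ^ (R \ Q).card := by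
        have hsub : univ.filter (fun R => Reach W Q R)
            ⊆ univ.filter (fun R => Reach W' Q R) ∪ univ.filter (fun R => Reach W' (Q ∪ T0) R) := by
          intro R hR
          have hR' := (Finset.mem_filter.mp hR).2
          rcases reach_split W Q T0 R hR' with h | h
          · exact Finset.mem_union_left _ (Finset.mem_filter.mpr ⟨Finset.mem_univ _, h⟩)
          · exact Finset.mem_union_right _ (Finset.mem_filter.mpr ⟨Finset.mem_univ _, h⟩)
        have h1 := Finset.sum_le_sum_of_subset_of_nonneg hsub (fun R _ _ => hf0 R)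
        have h2 := Finset.sum_union_inter (s₁ := univ.filter (fun R => Reach W' Q R))
          (s₂ := univ.filter (fun R => Reach W' (Q ∪ T0) R)) (f := fun R => t ^ (R \ Q).card)
        have h3 : 0 ≤ ∑ R ∈ univ.filter (fun R => Reach W' Q R)
            ∩ univ.filter (fun R => Reach W' (Q ∪ T0) R), t ^ (R \ Q).card :=
          Finset.sum_nonneg (fun R _ => hf0 R)
        linarith
      have s2 : ∑ R ∈ univ.filter (fun R => Reach W' (Q ∪ T0) R), t ^ (R \ Q).card
          = t ^ m * ∑ R ∈ univ.filter (fun R => Reach W' (Q ∪ T0) R), t ^ (R \ (Q ∪ T0)).card := by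
        rw [Finset.mul_sum]
        apply Finset.sum_congr rfl
        intro R hR
        have hR' := (Finset.mem_filter.mp hR).2.1
        have hT0R : T0 ⊆ R := Finset.subset_union_right.trans hR'
        rw [← pow_add]
        congr 1
        have e : R \ Q = (T0 \ Q) ∪ (R \ (Q ∪ T0)) := by
          ext x
          simp only [mem_sdiff, mem_union]
          constructor
          · rintro ⟨h1, h2⟩
            by_cases hx : x ∈ T0
            · exact Or.inl ⟨hx, h2⟩
            · exact Or.inr ⟨h1, fun h => h.elim h2 hx⟩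
          · rintro (⟨h1, h2⟩ | ⟨h1, h2⟩)
            · exact ⟨hT0R h1, h2⟩
            · exact ⟨h1, fun h => h2 (Or.inl h)⟩
        rw [e, Finset.card_union_of_disjoint]
        rw [Finset.disjoint_left]
        intro x hx hx'
        exact (Finset.mem_sdiff.mp hx').2 (Finset.mem_union_right _ (Finset.mem_sdiff.mp hx).1)
      have hlam0 : 0 ≤ lam := by linarith
      have hx0 : 0 ≤ t * lam ^ D := mul_nonneg ht0 (pow_nonneg hlam0 _)
      have a1 : t ^ m * lam ^ ((b - 1) + m * D) ≤ lam ^ (b - 1) * (lam - 1) := by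
        have e : t ^ m * lam ^ ((b - 1) + m * D) = lam ^ (b - 1) * (t * lam ^ D) ^ m := by
          rw [pow_add, mul_pow, ← pow_mul, mul_comm D m]
          ring
        rw [e]
        apply mul_le_mul_of_nonneg_left _ (pow_nonneg hlam0 _)
        exact (pow_le_of_le_one hx0 hkey1 (by omega)).trans hkey
      have a2 : lam ^ b = lam ^ (b - 1) * lam := by
        rw [← pow_succ]
        congr 1
        omega
      have a3 : t ^ m * ∑ R ∈ univ.filter (fun R => Reach W' (Q ∪ T0) R),
          t ^ (R \ (Q ∪ T0)).card ≤ t ^ m * lam ^ ((b - 1) + m * D) := by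
        apply mul_le_mul_of_nonneg_left _ (pow_nonneg ht0 _)
        exact ih2.trans (pow_le_pow_right₀ hlam1 c2)
      rw [c1] at ih1
      rw [a2]
      nlinarith [s1, s2, a1, a3, ih1]

end Vale.Agent.P034
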