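import Mathlib
import Vale.Agent.P034.Core
import Vale.Agent.P034.Defs
import Vale.Agent.P034.Growth

namespace Vale.Agent.P034

open Finset

lemma linked_union {X : Type} [DecidableEq X] (E : Finset (Finset X)) (R R' : Finset X)
    (hR : Linked E R) (hR' : Linked E R') (hnd : ¬ Disjoint R R') : Linked E (R ∪ R') := by
  intro Q hQne hQss
  have hQsub : Q ⊆ R ∪ R' := hQss.subset
  -- generic step
  have step : ∀ A : Finset X, Linked E A → A ⊆ R ∪ R' → (Q ∩ A).Nonempty → ¬ A ⊆ Q →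
      ∃ T ∈ E, T ⊆ R ∪ R' ∧ ¬ Disjoint T Q ∧ ¬ T ⊆ Q := by
    intro A hA hAsub hne hnsub
    have hss : Q ∩ A ⊂ A := by
      refine Finset.ssubset_iff_subset_ne.mpr ⟨Finset.inter_subset_right, fun e => hnsub ?_⟩
      rw [← e]
      exact Finset.inter_subset_left
    obtain ⟨T, hTE, hTA, h1, h2⟩ := hA (Q ∩ A) hne hss
    refine ⟨T, hTE, hTA.trans hAsub, fun hd => h1 ?_, fun hs => h2 ?_⟩
    · exact Finset.disjoint_of_subset_right Finset.inter_subset_left hd
    · exact Finset.subset_inter hs hTA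
  by_cases c1 : (Q ∩ R).Nonempty ∧ ¬ R ⊆ Q
  · exact step R hR Finset.subset_union_left c1.1 c1.2
  by_cases c2 : (Q ∩ R').Nonempty ∧ ¬ R' ⊆ Q
  · exact step R' hR' Finset.subset_union_right c2.1 c2.2
  exfalso
  rw [Finset.not_disjoint_iff] at hnd
  obtain ⟨z, hzR, hzR'⟩ := hnd
  obtain ⟨y, hy⟩ := hQne
  have hnall : ¬ (R ⊆ Q ∧ R' ⊆ Q) := by
    rintro ⟨h1, h2⟩
    exact hQss.2 (Finset.union_subset h1 h2)
  have i1 : (Q ∩ R).Nonempty → R ⊆ Q := fun h => by
    by_contra hcon
    exact c1 ⟨h, hcon⟩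
  have i2 : (Q ∩ R').Nonempty → R' ⊆ Q := fun h => by
    by_contra hcon
    exact c2 ⟨h, hcon⟩
  rcases Finset.mem_union.mp (hQsub hy) with h | h
  · have hRQ := i1 ⟨y, Finset.mem_inter.mpr ⟨hy, h⟩⟩
    have hR'Q := i2 ⟨z, Finset.mem_inter.mpr ⟨hRQ hzR, hzR'⟩⟩
    exact hnall ⟨hRQ, hR'Q⟩
  · have hR'Q := i2 ⟨y, Finset.mem_inter.mpr ⟨hy, h⟩⟩
    have hRQ := i1 ⟨z, Finset.mem_inter.mpr ⟨hR'Q hzR', hzR⟩⟩
    exact hnall ⟨hRQ, hR'Q⟩

lemma one_add_inv_pow_le_three (D : ℕ) (hD : 1 ≤ D) : (1 + 1 / (D : ℝ)) ^ D ≤ 3 := by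
  have hD0 : (0 : ℝ) < D := by exact_mod_cast hD
  have h1 : 1 + 1 / (D : ℝ) ≤ Real.exp (1 / (D : ℝ)) := by
    have := Real.add_one_le_exp (1 / (D : ℝ))
    linarith
  calc (1 + 1 / (D : ℝ)) ^ D ≤ (Real.exp (1 / (D : ℝ))) ^ D :=
        pow_le_pow_left₀ (by positivity) h1 D
    _ = Real.exp 1 := by
        rw [← Real.exp_nat_mul]
        congr 1
        field_simp
    _ ≤ 3 := (Real.exp_one_lt_d9.trans (by norm_num)).le

open Classical in
/-- growth of linked sets above a given nonempty set -/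
lemma linked_growth {X : Type} [Fintype X] [DecidableEq X] (E : Finset (Finset X)) (D : ℕ)
    (hD : 1 ≤ D) (hdeg : ∀ x, (E.filter (fun T => x ∈ T)).card ≤ D) (p : ℝ) (hp0 : 0 ≤ p)
    (hDp : (D : ℝ) * p ≤ 1) (S : Finset X) (hS : S.Nonempty) :
    ∑ R ∈ univ.filter (fun R : Finset X => Linked E R ∧ S ⊆ R), (p / 3) ^ R.card ≤ p ^ S.card := by
  have hD0 : (0 : ℝ) < D := by exact_mod_cast hD
  set lam0 : ℝ := 1 + 1 / (D : ℝ) with hlam0
  have h3 : lam0 ^ D ≤ 3 := one_add_inv_pow_le_three D hD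
  have hl1 : 1 ≤ lam0 := by
    have : 0 ≤ 1 / (D : ℝ) := by positivity
    simp only [hlam0]
    linarith
  have hpD : p ≤ 1 / (D : ℝ) := by
    rw [le_div_iff₀ hD0]
    linarith
  have hk : p / 3 * lam0 ^ D ≤ p := by
    have : p / 3 * lam0 ^ D ≤ p / 3 * 3 := mul_le_mul_of_nonneg_left h3 (by positivity)
    linarith
  have hkey : p / 3 * lam0 ^ D ≤ lam0 - 1 := by
    simp only [hlam0] at hk ⊢
    linarith
  have hD1 : 1 / (D : ℝ) ≤ 1 := by
    rw [div_le_one hD0]
    exact_mod_cast hD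
  have hkey1 : p / 3 * lam0 ^ D ≤ 1 := by linarith
  have hg := growth (X := X) D (p / 3) lam0 (by positivity) hl1 hkey hkey1 E.card E le_rfl hdeg S
  have hb : (bdry E S).card ≤ S.card * D := by
    have hsub : bdry E S ⊆ S.biUnion (fun x => E.filter (fun T => x ∈ T)) := by
      intro T hT
      obtain ⟨hTE, h1, _⟩ := Finset.mem_filter.mp hT
      rw [Finset.not_disjoint_iff] at h1
      obtain ⟨x, hxT, hxS⟩ := h1
      exact Finset.mem_biUnion.mpr ⟨x, hxS, Finset.mem_filter.mpr ⟨hTE, hxT⟩⟩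
    refine le_trans (Finset.card_le_card hsub) ?_
    refine le_trans Finset.card_biUnion_le ?_
    refine le_trans (Finset.sum_le_card_nsmul _ _ D (fun x _ => hdeg x)) ?_
    simp
  have hsub : univ.filter (fun R : Finset X => Linked E R ∧ S ⊆ R)
      ⊆ univ.filter (fun R => Reach E S R) := by
    intro R hR
    obtain ⟨_, hlink, hSR⟩ := Finset.mem_filter.mp hR
    refine Finset.mem_filter.mpr ⟨Finset.mem_univ _, hSR, fun Q' hQ' hss => ?_⟩
    exact hlink Q' (hS.mono hQ') hss
  calc ∑ R ∈ univ.filter (fun R : Finset X => Linked E R ∧ S ⊆ R), (p / 3) ^ R.card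
      = ∑ R ∈ univ.filter (fun R : Finset X => Linked E R ∧ S ⊆ R),
          (p / 3) ^ S.card * (p / 3) ^ (R \ S).card := by
        apply Finset.sum_congr rfl
        intro R hR
        obtain ⟨_, _, hSR⟩ := Finset.mem_filter.mp hR
        rw [← pow_add, Finset.card_sdiff_of_subset hSR]
        congr 1
        have := Finset.card_le_card hSR
        omega
    _ = (p / 3) ^ S.card * ∑ R ∈ univ.filter (fun R : Finset X => Linked E R ∧ S ⊆ R),
          (p / 3) ^ (R \ S).card := by rw [Finset.mul_sum]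
    _ ≤ (p / 3) ^ S.card * ∑ R ∈ univ.filter (fun R => Reach E S R), (p / 3) ^ (R \ S).card := by
        apply mul_le_mul_of_nonneg_left _ (by positivity)
        exact Finset.sum_le_sum_of_subset_of_nonneg hsub (fun R _ _ => by positivity)
    _ ≤ (p / 3) ^ S.card * lam0 ^ (S.card * D) := by
        apply mul_le_mul_of_nonneg_left _ (by positivity)
        exact hg.trans (pow_le_pow_right₀ hl1 hb)
    _ = (p / 3) ^ S.card * (lam0 ^ D) ^ S.card := by rw [mul_comm S.card D, pow_mul]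
    _ ≤ (p / 3) ^ S.card * 3 ^ S.card := by
        apply mul_le_mul_of_nonneg_left _ (by positivity)
        exact pow_le_pow_left₀ (by positivity) h3 _
    _ = p ^ S.card := by
        rw [← mul_pow]
        congr 1
        ring

open Classical in
theorem linked_small (X : Type) [Fintype X] [DecidableEq X] (F : Finset (Finset X))
    (g : Finset X → ℝ) (p : ℝ) (hp0 : 0 ≤ p)
    (hg : IsFracCover g F) (hcost : fracCost g p ≤ 1 / 2)
    (E : Finset (Finset X)) (D : ℕ) (hD : 1 ≤ D)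
    (hdeg : ∀ x, (E.filter (fun T => x ∈ T)).card ≤ D) (hDp : (D : ℝ) * p ≤ 1)
    (hlink : ∀ S, g S ≠ 0 → Linked E S) :
    IsSmall F (p / 2 ^ 39) := by
  obtain ⟨hg01, hgF⟩ := hg
  have hg0 : ∀ S, 0 ≤ g S := fun S => (hg01 S).1
  obtain ⟨LL, hLLmem⟩ : ∃ LL : Finset (Finset X), ∀ S, S ∈ LL ↔ (g S ≠ 0 ∧ S.Nonempty) :=
    ⟨univ.filter (fun S => g S ≠ 0 ∧ S.Nonempty), by simp⟩
  obtain ⟨PP, hPPmem⟩ : ∃ PP : Finset (Finset X), ∀ R, R ∈ PP ↔ (R.Nonempty ∧ Linked E R) :=
    ⟨univ.filter (fun R => R.Nonempty ∧ Linked E R), by simp⟩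
  have hLLPP : LL ⊆ PP := by
    intro S hS
    obtain ⟨h1, h2⟩ := (hLLmem S).mp hS
    exact (hPPmem S).mpr ⟨h2, hlink S h1⟩
  set GG : Finset X → ℝ := fun S => ∑ S' ∈ LL.filter (fun S' => S' ⊆ S), g S' with hGG
  set lam : Finset X → ℝ := fun S => min 1 (2 * GG S) with hlamdef
  set a : Finset X → ℝ := fun S => (p / 3) ^ S.card with ha
  have ha0 : ∀ S, 0 ≤ a S := fun S => by simp only [ha]; positivity
  have hGG0 : ∀ S, 0 ≤ GG S := fun S => Finset.sum_nonneg (fun S' _ => hg0 S')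
  have hterm0 : ∀ S : Finset X, 0 ≤ g S * p ^ S.card := fun S => mul_nonneg (hg0 S) (by positivity)
  set AA : Finset (Finset X) := PP.filter (fun R => 0 < GG R) with hAA
  -- f1
  have f1 : g ∅ ≤ 1 / 2 := by
    have h := Finset.single_le_sum (f := fun S : Finset X => g S * p ^ S.card)
      (fun S _ => hterm0 S) (Finset.mem_univ (∅ : Finset X))
    simp only [Finset.card_empty, pow_zero, mul_one] at h
    unfold fracCost at hcost
    linarith
  -- f2
  have f2 : ∀ H ∈ F, 1 / 2 ≤ ∑ S' ∈ LL.filter (fun S' => S' ⊆ H), g S' := by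
    intro H hH
    have h1 := hgF H hH
    have h2 : ∑ S ∈ H.powerset, g S = g ∅ + ∑ S ∈ H.powerset.erase ∅, g S := by
      rw [Finset.add_sum_erase _ _ (Finset.empty_mem_powerset H)]
    have h3 : ∑ S ∈ H.powerset.erase ∅, g S
        = ∑ S ∈ (H.powerset.erase ∅).filter (fun S => g S ≠ 0), g S :=
      (Finset.sum_filter_ne_zero _).symm
    have h4 : (H.powerset.erase ∅).filter (fun S => g S ≠ 0) = LL.filter (fun S' => S' ⊆ H) := by
      ext S
      simp only [hLLmem, mem_filter, mem_erase, mem_powerset,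
        Finset.nonempty_iff_ne_empty]
      tauto
    rw [h4] at h3
    linarith
  -- growth
  have fgrow : ∀ S' ∈ LL, ∑ S ∈ PP.filter (fun S => S' ⊆ S), a S ≤ p ^ S'.card := by
    intro S' hS'
    obtain ⟨_, hneS'⟩ := (hLLmem S').mp hS'
    have h := linked_growth E D hD hdeg p hp0 hDp S' hneS'
    refine le_trans ?_ h
    apply Finset.sum_le_sum_of_subset_of_nonneg
    · intro R hR
      obtain ⟨h1, h2⟩ := Finset.mem_filter.mp hR
      exact Finset.mem_filter.mpr ⟨Finset.mem_univ _, ((hPPmem R).mp h1).2, h2⟩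
    · intro R _ _
      positivity
  -- f3
  have f3 : ∑ S ∈ AA, lam S * a S ≤ 1 := by
    have h0 : ∑ S ∈ AA, lam S * a S ≤ ∑ S ∈ PP, lam S * a S := by
      apply Finset.sum_le_sum_of_subset_of_nonneg (Finset.filter_subset _ _)
      intro S _ _
      apply mul_nonneg _ (ha0 S)
      apply le_min zero_le_one
      have := hGG0 S
      linarith
    have h1 : ∑ S ∈ PP, lam S * a S ≤ ∑ S ∈ PP, (2 * GG S) * a S := by
      apply Finset.sum_le_sum
      intro S _
      exact mul_le_mul_of_nonneg_right (min_le_right _ _) (ha0 S)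
    have h2 : ∑ S ∈ PP, (2 * GG S) * a S
        = 2 * ∑ S' ∈ LL, g S' * ∑ S ∈ PP.filter (fun S => S' ⊆ S), a S := by
      have e1 : ∀ S ∈ PP, (2 * GG S) * a S
          = 2 * ∑ S' ∈ LL, (if S' ⊆ S then g S' * a S else 0) := by
        intro S _
        simp only [hGG]
        rw [Finset.sum_filter, mul_assoc, Finset.sum_mul]
        congr 1
        apply Finset.sum_congr rfl
        intro S' _
        split_ifs <;> simp
      rw [Finset.sum_congr rfl e1, ← Finset.mul_sum, Finset.sum_comm]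
      congr 1
      apply Finset.sum_congr rfl
      intro S' _
      rw [Finset.sum_filter, Finset.mul_sum]
      apply Finset.sum_congr rfl
      intro S _
      split_ifs <;> simp
    have h3 : ∑ S' ∈ LL, g S' * ∑ S ∈ PP.filter (fun S => S' ⊆ S), a S
        ≤ ∑ S' ∈ LL, g S' * p ^ S'.card := by
      apply Finset.sum_le_sum
      intro S' hS'
      exact mul_le_mul_of_nonneg_left (fgrow S' hS') (hg0 S')
    have h4 : ∑ S' ∈ LL, g S' * p ^ S'.card ≤ fracCost g p := by
      unfold fracCost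
      apply Finset.sum_le_sum_of_subset_of_nonneg (Finset.subset_univ _)
      intro S _ _
      exact hterm0 S
    linarith
  have hlam0 : ∀ S ∈ AA, 0 < lam S := by
    intro S hS
    have hpos := (Finset.mem_filter.mp hS).2
    simp only [hlamdef]
    apply lt_min zero_lt_one
    linarith
  have hlam1 : ∀ S ∈ AA, lam S ≤ 1 := fun S _ => min_le_left _ _
  obtain ⟨K, hK1, hK2, hK3⟩ := core AA a lam ha0 hlam0 hlam1 f3
  set q : ℝ := p / 2 ^ 39 with hq
  have hq0 : 0 ≤ q := by simp only [hq]; positivity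
  set KD : Finset (Finset (Finset X)) :=
    K.filter (fun I : Finset (Finset X) => (I : Set (Finset X)).PairwiseDisjoint id) with hKD
  refine ⟨KD.image (fun I => I.biUnion id), ?_, ?_⟩
  · intro H hH
    set LH := LL.filter (fun S' => S' ⊆ H) with hLH
    set PH := PP.filter (fun S' => S' ⊆ H) with hPH
    set J0 := PH.filter (fun S => Maximal (fun T => T ∈ PH) S) with hJ0
    set J := J0.filter (fun R => 0 < GG R) with hJ
    have hJ0PH : J0 ⊆ PH := Finset.filter_subset _ _
    have hJJ0 : J ⊆ J0 := Finset.filter_subset _ _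
    have hJsub : J ⊆ AA := by
      intro R hR
      obtain ⟨h1, h2⟩ := Finset.mem_filter.mp hR
      exact Finset.mem_filter.mpr ⟨(Finset.mem_filter.mp (hJ0PH h1)).1, h2⟩
    have hJ0disj : (J0 : Set (Finset X)).PairwiseDisjoint id := by
      intro S hS T hT hne
      have hS1 := Finset.mem_filter.mp (Finset.mem_coe.mp hS)
      have hT1 := Finset.mem_filter.mp (Finset.mem_coe.mp hT)
      have hSP := Finset.mem_filter.mp hS1.1
      have hTP := Finset.mem_filter.mp hT1.1
      by_contra hnd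
      have hnd' : ¬ Disjoint S T := hnd
      have hU : S ∪ T ∈ PH := by
        apply Finset.mem_filter.mpr
        refine ⟨(hPPmem _).mpr ⟨((hPPmem S).mp hSP.1).1.mono Finset.subset_union_left,
          linked_union E S T ((hPPmem S).mp hSP.1).2 ((hPPmem T).mp hTP.1).2 hnd'⟩,
          Finset.union_subset hSP.2 hTP.2⟩
      have e1 : S ∪ T ⊆ S := hS1.2.2 hU Finset.subset_union_left
      have e2 : S ∪ T ⊆ T := hT1.2.2 hU Finset.subset_union_right
      apply hne
      apply Finset.Subset.antisymm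
      · exact Finset.subset_union_left.trans e2
      · exact Finset.subset_union_right.trans e1
    have hsum : 1 ≤ ∑ S ∈ J, lam S := by
      apply one_le_sum_min J (fun S => 2 * GG S)
      · intro S _
        have := hGG0 S
        linarith
      · have h1 : LH ⊆ J0.biUnion (fun S => LL.filter (fun S' => S' ⊆ S)) := by
          intro S' hS'
          have hS'1 := Finset.mem_filter.mp hS'
          have hS'PH : S' ∈ PH := Finset.mem_filter.mpr ⟨hLLPP hS'1.1, hS'1.2⟩
          obtain ⟨S, hS'S, hSmax⟩ := Finset.exists_le_maximal PH hS'PH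
          apply Finset.mem_biUnion.mpr
          refine ⟨S, Finset.mem_filter.mpr ⟨hSmax.1, hSmax⟩, ?_⟩
          exact Finset.mem_filter.mpr ⟨hS'1.1, hS'S⟩
        have h2 : ∑ S' ∈ LH, g S' ≤ ∑ S' ∈ J0.biUnion (fun S => LL.filter (fun S' => S' ⊆ S)), g S' :=
          Finset.sum_le_sum_of_subset_of_nonneg h1 (fun S' _ _ => hg0 S')
        have h3 := sum_biUnion_le' J0 (fun S => LL.filter (fun S' => S' ⊆ S)) g hg0
        have h4 := f2 H hH
        rw [← Finset.mul_sum]
        have h5 : ∑ S ∈ J0, GG S = ∑ S ∈ J0, ∑ S' ∈ LL.filter (fun S' => S' ⊆ S), g S' := rfl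
        have h6 : ∑ S ∈ J, GG S = ∑ S ∈ J0, GG S := by
          apply Finset.sum_filter_of_ne
          intro R _ hne
          exact lt_of_le_of_ne (hGG0 R) (Ne.symm hne)
        linarith
    obtain ⟨I, hIK, hIJ⟩ := hK2 J hJsub hsum
    refine ⟨I.biUnion id, Finset.mem_image.mpr ⟨I, Finset.mem_filter.mpr ⟨hIK, ?_⟩, rfl⟩, ?_⟩
    · exact hJ0disj.subset (by exact_mod_cast hIJ.trans hJJ0)
    · intro x hx
      obtain ⟨S, hS, hxS⟩ := Finset.mem_biUnion.mp hx
      have := (Finset.mem_filter.mp (hJ0PH (hJJ0 (hIJ hS)))).2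
      exact this hxS
  · unfold cost
    have h1 := sum_image_le' KD (fun I : Finset (Finset X) => I.biUnion id)
      (fun U : Finset X => q ^ U.card) (fun U => by positivity)
    have h2 : ∀ I ∈ KD, q ^ (I.biUnion id).card ≤ ∏ S ∈ I, (a S / 2 ^ 37) := by
      intro I hI
      obtain ⟨hIK, hIdisj⟩ := Finset.mem_filter.mp hI
      have hcard : (I.biUnion id).card = ∑ S ∈ I, S.card := by
        rw [Finset.card_biUnion]
        · rfl
        · intro S hS T hT hne
          exact hIdisj (Finset.mem_coe.mpr hS) (Finset.mem_coe.mpr hT) hne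
      rw [hcard, ← Finset.prod_pow_eq_pow_sum]
      apply Finset.prod_le_prod
      · intro S _
        positivity
      · intro S hS
        have hSA := (hK1 I hIK).2 hS
        have hSP := (Finset.mem_filter.mp hSA).1
        have hc1 : 1 ≤ S.card := ((hPPmem S).mp hSP).1.card_pos
        have e : q ≤ (p / 3) / 2 ^ 37 := by
          simp only [hq]
          rw [div_div]
          apply div_le_div_of_nonneg_left hp0 (by positivity)
          norm_num
        calc q ^ S.card ≤ ((p / 3) / 2 ^ 37) ^ S.card := pow_le_pow_left₀ hq0 e _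
          _ = (p / 3) ^ S.card / (2 ^ 37) ^ S.card := by rw [div_pow]
          _ ≤ a S / 2 ^ 37 := by
            simp only [ha]
            apply div_le_div_of_nonneg_left (by positivity) (by positivity)
            calc (2 : ℝ) ^ 37 = (2 ^ 37) ^ 1 := by norm_num
              _ ≤ (2 ^ 37) ^ S.card := pow_le_pow_right₀ (by norm_num) hc1
    have h3 : ∑ I ∈ KD, ∏ S ∈ I, (a S / 2 ^ 37) ≤ ∑ I ∈ K, ∏ S ∈ I, (a S / 2 ^ 37) := by
      apply Finset.sum_le_sum_of_subset_of_nonneg (Finset.filter_subset _ _)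
      intro I _ _
      exact Finset.prod_nonneg (fun S _ => div_nonneg (ha0 S) (by positivity))
    have h4 := Finset.sum_le_sum h2
    linarith

lemma isSmall_mono {X : Type} (F : Finset (Finset X)) (q q' : ℝ) (h0 : 0 ≤ q') (h : q' ≤ q)
    (hs : IsSmall F q) : IsSmall F q' := by
  obtain ⟨G, hG, hc⟩ := hs
  refine ⟨G, hG, le_trans ?_ hc⟩
  unfold cost
  exact Finset.sum_le_sum (fun S _ => pow_le_pow_left₀ h0 h _)

lemma fracCost_mono {X : Type} [Fintype X] (g : Finset X → ℝ) (hg : ∀ S, 0 ≤ g S) (q q' : ℝ)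
    (h0 : 0 ≤ q') (h : q' ≤ q) : fracCost g q' ≤ fracCost g q := by
  unfold fracCost
  exact Finset.sum_le_sum (fun S _ => mul_le_mul_of_nonneg_left (pow_le_pow_left₀ h0 h _) (hg S))

theorem linked_small_min (X : Type) [Fintype X] [DecidableEq X] (F : Finset (Finset X))
    (g : Finset X → ℝ) (p : ℝ) (hp0 : 0 ≤ p)
    (hg : IsFracCover g F) (hcost : fracCost g p ≤ 1 / 2)
    (E : Finset (Finset X)) (D : ℕ) (hD : 1 ≤ D)
    (hdeg : ∀ x, (E.filter (fun T => x ∈ T)).card ≤ D)
    (hlink : ∀ S, g S ≠ 0 → Linked E S) :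
    IsSmall F (min p (1 / (D : ℝ)) / 2 ^ 39) := by
  have hD0 : (0 : ℝ) < D := by exact_mod_cast hD
  have h0 : 0 ≤ min p (1 / (D : ℝ)) := le_min hp0 (by positivity)
  apply linked_small X F g (min p (1 / (D : ℝ))) h0 hg _ E D hD hdeg _ hlink
  · exact (fracCost_mono g (fun S => (hg.1 S).1) p _ h0 (min_le_left _ _)).trans hcost
  · calc (D : ℝ) * min p (1 / (D : ℝ)) ≤ (D : ℝ) * (1 / (D : ℝ)) :=
        mul_le_mul_of_nonneg_left (min_le_right _ _) hD0.le
      _ = 1 := by field_simp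

end Vale.Agent.P034
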